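import Vale.Agent.P065.Defs
import Vale.Agent.P065.KSet

namespace Vale.Agent.Results.P065.A_lower

open Vale.Agent.P065

theorem result : ∃ (C : ℝ) (n₀ : ℕ),
    (∀ n : ℕ, n₀ ≤ n → Even n → ∃ P : Finset (ℝ × ℝ), P.card = n ∧ NoThreeCollinear P ∧
      (n : ℝ) * Real.exp (Real.log n * Real.exp (-C * Real.sqrt (Real.log (Real.log n)))) ≤
        halvingCount P) ∧
    (∀ k n : ℕ, n₀ ≤ k → 2 * k ≤ n → ∃ P : Finset (ℝ × ℝ), P.card = n ∧ NoThreeCollinear P ∧
      (n : ℝ) * Real.exp (Real.log k * Real.exp (-C * Real.sqrt (Real.log (Real.log k)))) ≤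
        kSetCount P k) := by
  refine ⟨11, ⌈Real.exp (Real.exp 121)⌉₊, fun n hn hev => ?_, fun k n hk hn => ?_⟩
  · obtain ⟨X, h1, h2, h3⟩ := main n n (Nat.ceil_le.mp hn) le_rfl hev
    obtain ⟨P, a1, a2, a3⟩ := X.halving h2
    refine ⟨P, by rw [a1, h1], a2, ?_⟩
    have a4 : (Fintype.card X.N : ℝ) ≤ halvingCount P := by exact_mod_cast a3
    have h0 : (0 : ℝ) ≤ n * Real.exp (Real.log n * Real.exp (-11 * √(Real.log (Real.log n)))) := by
      positivity
    linarith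
  · have hk0 : 0 < k := by
      have : (0 : ℝ) < k := lt_of_lt_of_le (Real.exp_pos _) (Nat.ceil_le.mp hk)
      exact_mod_cast this
    obtain ⟨X, h1, h2, h3⟩ := main k (2 * k) (Nat.ceil_le.mp hk) (by omega) (even_two_mul k)
    obtain ⟨P, a1, a2, a3⟩ := X.ksets h2 k (n / (2 * k)) (n % (2 * k)) h1
    refine ⟨P, by rw [a1, Nat.div_add_mod'], a2, ?_⟩
    have a4 : ((n / (2 * k) : ℕ) : ℝ) * Fintype.card X.N ≤ kSetCount P k := by exact_mod_cast a3
    have b1 : 1 ≤ n / (2 * k) := (Nat.le_div_iff_mul_le (by omega)).mpr (by omega)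
    have b2 : n < 2 * k * (n / (2 * k) + 1) := Nat.lt_mul_div_succ n (by omega)
    have b3 : n ≤ n / (2 * k) * (2 * (2 * k)) := by nlinarith
    have b4 : (n : ℝ) ≤ ((n / (2 * k) : ℕ) : ℝ) * (2 * ((2 * k : ℕ) : ℝ)) := by exact_mod_cast b3
    have b5 := mul_le_mul_of_nonneg_left h3 (Nat.cast_nonneg (α := ℝ) (n / (2 * k)))
    have b6 := mul_le_mul_of_nonneg_right b4
      (Real.exp_pos (Real.log k * Real.exp (-11 * √(Real.log (Real.log k))))).le
    linarith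

end Vale.Agent.Results.P065.A_lower
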