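import Vale.Agent.P065.Defs
import Vale.Agent.P065.U.Upper
import Vale.Agent.Results.P065.A_lower

namespace Vale.Agent.Results.P065.A0_both

open Vale.Agent.P065

theorem result :
    (∃ ε C : ℝ, 0 < ε ∧
      (∀ P : Finset (ℝ × ℝ), NoThreeCollinear P →
        (halvingCount P : ℝ) ≤ C * (P.card : ℝ) ^ (4 / 3 - ε)) ∧
      (∀ (P : Finset (ℝ × ℝ)) (k : ℕ), NoThreeCollinear P → 1 ≤ k → k < P.card →
        (kSetCount P k : ℝ) ≤ C * (P.card : ℝ) * (k : ℝ) ^ (1 / 3 - ε))) ∧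
    (∃ (C : ℝ) (n₀ : ℕ),
      (∀ n : ℕ, n₀ ≤ n → Even n → ∃ P : Finset (ℝ × ℝ), P.card = n ∧ NoThreeCollinear P ∧
        (n : ℝ) * Real.exp (Real.log n * Real.exp (-C * Real.sqrt (Real.log (Real.log n)))) ≤
          halvingCount P) ∧
      (∀ k n : ℕ, n₀ ≤ k → 2 * k ≤ n → ∃ P : Finset (ℝ × ℝ), P.card = n ∧ NoThreeCollinear P ∧
        (n : ℝ) * Real.exp (Real.log k * Real.exp (-C * Real.sqrt (Real.log (Real.log k)))) ≤
          kSetCount P k)) :=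
  ⟨Vale.Agent.P065.U.upper, Vale.Agent.Results.P065.A_lower.result⟩

end Vale.Agent.Results.P065.A0_both
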